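import Vale.Agent.P178.St

/-! P178 Blk: finite matrices of Steinberg elements, the block swap and the doubling `a ⊕ a⁻¹`. -/

namespace Vale.Agent.P178

open Finsupp

variable {R : Type} [CommRing R] {ι : Type} [Fintype ι] [DecidableEq ι] {σ : ι → ℕ}

noncomputable def mat (σ : ι → ℕ) (g : St R) : Matrix ι ι R :=
  Matrix.of fun i j => pi g (single (σ j) 1) (σ i)

omit [DecidableEq ι] in
theorem pi_col (hσ : Function.Injective σ) {g : St R} (hg : g ∈ Sub R (Set.range σ)) (j : ι) :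
    pi g (single (σ j) 1) = ∑ k, mat σ g k j • single (σ k) (1 : R) := by
  ext m
  rw [Finsupp.finsetSum_apply]
  by_cases hm : m ∈ Set.range σ
  · obtain ⟨i, rfl⟩ := hm
    rw [Finset.sum_eq_single i]
    · simp [mat]
    · intro k _ hk
      rw [Finsupp.smul_apply, single_eq_of_ne (hσ.ne hk.symm), smul_zero]
    · simp
  · rw [pi_out hg hm, single_eq_of_ne (fun e : m = σ j => hm ⟨j, e.symm⟩)]
    refine (Finset.sum_eq_zero fun k _ => ?_).symm
    rw [Finsupp.smul_apply, single_eq_of_ne (fun e : m = σ k => hm ⟨k, e.symm⟩), smul_zero]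

omit [DecidableEq ι] in
theorem mat_mul (hσ : Function.Injective σ) (g : St R) {g' : St R}
    (hg : g' ∈ Sub R (Set.range σ)) : mat σ (g * g') = mat σ g * mat σ g' := by
  ext i j
  rw [Matrix.mul_apply, mat, Matrix.of_apply, pi_mul, pi_col hσ hg, map_sum,
    Finsupp.finsetSum_apply]
  refine Finset.sum_congr rfl fun k _ => ?_
  rw [map_smul, Finsupp.smul_apply, smul_eq_mul, mul_comm]
  rfl

omit [Fintype ι] in
theorem mat_of_one (hσ : Function.Injective σ) {g : St R} (h : pi g = 1) : mat σ g = 1 := by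
  ext i j
  rw [mat, Matrix.of_apply, h, LinearEquiv.coe_one, id, single_apply, Matrix.one_apply]
  simp only [hσ.eq_iff, eq_comm]

theorem mat_pow (hσ : Function.Injective σ) {g : St R} (hg : g ∈ Sub R (Set.range σ)) (k : ℕ) :
    mat σ (g ^ k) = mat σ g ^ k := by
  induction k with
  | zero => rw [pow_zero, pow_zero, mat_of_one hσ (map_one _)]
  | succ k ih => rw [pow_succ, pow_succ, mat_mul hσ _ hg, ih]

theorem pi_eq_one (hσ : Function.Injective σ) {g : St R} (hg : g ∈ Sub R (Set.range σ))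
    (h : mat σ g = 1) : pi g = 1 := by
  apply LinearEquiv.toLinearMap_injective
  refine Finsupp.lhom_ext' fun m => LinearMap.ext_ring ?_
  change pi g (single m 1) = single m 1
  by_cases hm : m ∈ Set.range σ
  · obtain ⟨j, rfl⟩ := hm
    rw [pi_col hσ hg, h, Finset.sum_eq_single j]
    · simp
    · intro k _ hk
      rw [Matrix.one_apply_ne hk, zero_smul]
    · simp
  · exact pi_single_out hg hm 1

theorem ent_out {s : Set ℕ} {g : St R} (hg : g ∈ Sub R s) {i j : ℕ} (h : i ∉ s ∨ j ∉ s) :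
    pi g (single j 1) i = if j = i then 1 else 0 := by
  rcases h with h | h
  · rw [pi_out hg h, single_apply]
  · rw [pi_single_out hg h, single_apply]

def wab (a b : ℕ) (h : a ≠ b) (u v : R) : St R := x a b h u * x b a h.symm (-v) * x a b h u

/-- The block swap. -/
def ww (R : Type) [CommRing R] : St R :=
  wab 0 5 (by norm_num) 1 1 * wab 1 6 (by norm_num) 1 1 * wab 2 7 (by norm_num) 1 1 *
    wab 3 8 (by norm_num) 1 1 * wab 4 9 (by norm_num) 1 1

theorem wab_mem {s : Set ℕ} {a b : ℕ} (h : a ≠ b) (u v : R) (ha : a ∈ s) (hb : b ∈ s) :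
    wab a b h u v ∈ Sub R s :=
  mul_mem (mul_mem (x_mem _ _ ha hb) (x_mem _ _ hb ha)) (x_mem _ _ ha hb)

theorem ww_mem : ww R ∈ Sub R (Set.Iio 10) := by
  refine mul_mem (mul_mem (mul_mem (mul_mem ?_ ?_) ?_) ?_) ?_ <;>
    exact wab_mem _ _ _ (by norm_num) (by norm_num)

theorem stMap_ww {S : Type} [CommRing S] (f : R →+* S) : stMap f (ww R) = ww S := by
  simp only [ww, wab, map_mul, stMap_x, map_one, map_neg]

theorem pi_ww (v : ℕ →₀ R) (k : ℕ) :
    pi (ww R) v k = if k < 5 then v (k + 5) else if k < 10 then -v (k - 5) else v k := by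
  by_cases hk : k < 10
  · interval_cases k <;> simp [ww, wab, pi_mul, pi_x_apply]
  · rw [pi_out ww_mem hk, if_neg (by omega), if_neg hk]

theorem pi_ww_x {i j : ℕ} (h : i ≠ j) (r : R) (hi : i < 5) (hj : j < 5) :
    pi (ww R * x i j h r * (ww R)⁻¹) = pi (x (i + 5) (j + 5) (by omega) r) := by
  rw [map_mul, map_inv, mul_inv_eq_iff_eq_mul, ← map_mul]
  ext v k
  rw [pi_mul, pi_mul, pi_x_apply, pi_ww, pi_ww, pi_ww, pi_x_apply, pi_x_apply, pi_x_apply,
    if_neg (show ¬ j + 5 < 5 by omega), if_pos (show j + 5 < 10 by omega), Nat.add_sub_cancel]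
  split_ifs <;> first | omega | ring

theorem pi_ww_single {j : ℕ} (hj : j < 5) :
    pi (ww R)⁻¹ (single (j + 5) 1) = -single j 1 := by
  rw [map_inv, LinearEquiv.coe_inv, LinearEquiv.symm_apply_eq]
  ext k
  rw [pi_ww]
  simp only [Finsupp.neg_apply, single_apply]
  split_ifs <;> first | omega | simp

theorem ent_ww (a : St R) {i j : ℕ} (hi : i < 5) (hj : j < 5) :
    pi (ww R * a * (ww R)⁻¹) (single (j + 5) 1) (i + 5) = pi a (single j 1) i := by
  rw [pi_mul, pi_mul, pi_ww_single hj, pi_ww, if_neg (by omega), if_pos (by omega), map_neg,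
    Nat.add_sub_cancel, Finsupp.neg_apply, neg_neg]

theorem exists_shift {a : St R} (ha : a ∈ Sub R (Set.Iio 4)) :
    ∃ a' ∈ Sub R (Set.Ico 5 9), pi (ww R * a * (ww R)⁻¹) = pi a' := by
  refine Sub_ind (p := fun a => ∃ a' ∈ Sub R (Set.Ico 5 9), pi (ww R * a * (ww R)⁻¹) = pi a')
    ⟨1, one_mem _, by rw [mul_one, mul_inv_cancel]⟩ ?_ ha
  rintro i j h r a hi hj - ⟨a', ha', e⟩
  have hi' : i < 4 := hi
  have hj' : j < 4 := hj
  refine ⟨x (i + 5) (j + 5) (by omega) r * a',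
    mul_mem (x_mem _ _ ⟨by omega, by omega⟩ ⟨by omega, by omega⟩) ha', ?_⟩
  rw [map_mul pi _ a', ← e, ← pi_ww_x h r (by omega) (by omega), ← map_mul]
  congr 1
  group

theorem eq_central {a b : St R} (h : pi a = pi b) : ∃ z : St R, (∀ c, Commute z c) ∧ a = z * b :=
  ⟨a * b⁻¹, central (by rw [map_mul, map_inv, h, mul_inv_cancel]), by group⟩

theorem comm_blocks {a b : St R} (ha : a ∈ Sub R (Set.Iio 5)) (hb : b ∈ Sub R (Set.Iio 5)) :
    Commute a (ww R * b * (ww R)⁻¹) := by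
  refine Sub_ind (p := fun b => Commute a (ww R * b * (ww R)⁻¹)) (by simp) ?_ hb
  intro i j h r b hi hj _ ih
  have e : ww R * (x i j h r * b) * (ww R)⁻¹ =
      (ww R * x i j h r * (ww R)⁻¹) * (ww R * b * (ww R)⁻¹) := by group
  rw [e]
  refine Commute.mul_right ?_ ih
  obtain ⟨z, hz, e'⟩ := eq_central (pi_ww_x h r hi hj)
  rw [e']
  refine Commute.mul_right (hz a).symm ?_
  refine Sub_ind (p := fun a => Commute a (x (i + 5) (j + 5) (by omega) r))
    (Commute.one_left _) ?_ ha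
  intro k l hkl s a hk hl _ ih
  have hk' : k < 5 := hk
  have hl' : l < 5 := hl
  exact Commute.mul_left (x_comm _ _ (by omega) (by omega) _ _) ih

/-- A lift of `a ⊕ a⁻¹`. -/
def dbl (a : St R) : St R := a * (ww R * a * (ww R)⁻¹)⁻¹

theorem stMap_dbl {S : Type} [CommRing S] (f : R →+* S) (a : St R) :
    stMap f (dbl a) = dbl (stMap f a) := by
  simp only [dbl, map_mul, map_inv, stMap_ww]

theorem dbl_pow {a : St R} (ha : a ∈ Sub R (Set.Iio 5)) (h : pi (a ^ 5) = 1) : dbl a ^ 5 = 1 := by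
  rw [dbl, (comm_blocks ha ha).inv_right.mul_pow, inv_pow, conj_pow,
    ← (central h (ww R)).eq, mul_inv_cancel_right, mul_inv_cancel]

theorem dbl_conj {a b p : St R} (hb : b ∈ Sub R (Set.Iio 5)) (hp : p ∈ Sub R (Set.Iio 5))
    (h : pi a = pi (p * b * p⁻¹)) : ∃ q : St R, dbl a = q * dbl b * q⁻¹ := by
  obtain ⟨z, hz, rfl⟩ := eq_central h
  obtain ⟨p', hp'⟩ : ∃ p', p' = ww R * p * (ww R)⁻¹ := ⟨_, rfl⟩
  obtain ⟨b', hb'⟩ : ∃ b', b' = ww R * b * (ww R)⁻¹ := ⟨_, rfl⟩
  have c1 : Commute b p' := hp' ▸ comm_blocks hb hp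
  have c2 : Commute p p' := hp' ▸ comm_blocks hp hp
  have c3 : Commute p b' := hb' ▸ comm_blocks hp hb
  have e1 : ww R * (z * (p * b * p⁻¹)) * (ww R)⁻¹ = z * (p' * b' * p'⁻¹) := by
    rw [← mul_assoc, ← (hz (ww R)).eq, hp', hb']
    group
  refine ⟨p * p', ?_⟩
  rw [dbl, dbl, e1, ← hb', (hz (p * b * p⁻¹)).eq, (hz (p' * b' * p'⁻¹)).eq]
  have c4 : Commute p⁻¹ (p' * b'⁻¹ * p'⁻¹) :=
    ((c2.mul_right c3.inv_right).mul_right c2.inv_right).inv_left
  calc p * b * p⁻¹ * z * (p' * b' * p'⁻¹ * z)⁻¹ = p * b * (p⁻¹ * (p' * b'⁻¹ * p'⁻¹)) := by group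
    _ = p * (b * p') * b'⁻¹ * p'⁻¹ * p⁻¹ := by rw [c4.eq]; group
    _ = _ := by rw [c1.eq]; group

end Vale.Agent.P178
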