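import Vale.Agent.P178.Defs

/-! P178 Hom: a criterion for non-injectivity on `H₃`. -/

namespace Vale.Agent.P178

open CategoryTheory groupHomology Finsupp

variable {G H : Type} [Group G] [Group H]

abbrev Ch (G : Type) (n : ℕ) : Type := (Fin n → G) →₀ ℤ

noncomputable def s2 (a b : G) : Ch G 2 := single ![a, b] 1

noncomputable def s3 (a b c : G) : Ch G 3 := single ![a, b, c] 1

noncomputable def s4 (a b c e : G) : Ch G 4 := single ![a, b, c, e] 1

noncomputable def dd (G : Type) [Group G] (n : ℕ) : Ch G (n + 1) →ₗ[ℤ] Ch G n :=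
  (inhomogeneousChains.d (Rep.trivial ℤ G ℤ) n).hom

theorem dd_single (n : ℕ) (g : Fin (n + 1) → G) :
    dd G n (single g 1) = single (fun i => g i.succ) 1 +
      ∑ j : Fin (n + 1), (-1 : ℤ) ^ ((j : ℕ) + 1) • single (Fin.contractNth j (· * ·) g) 1 :=
  inhomogeneousChains.d_single (A := Rep.trivial ℤ G ℤ) n g (1 : ℤ)

theorem dd_s3 (a b c : G) :
    dd G 2 (s3 a b c) = s2 b c - s2 (a * b) c + s2 a (b * c) - s2 a b := by
  have e0 : (fun i : Fin 2 => ![a, b, c] i.succ) = ![b, c] := by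
    ext i; fin_cases i <;> rfl
  have e1 : Fin.contractNth (0 : Fin 3) (· * ·) ![a, b, c] = ![a * b, c] := by
    ext i; fin_cases i <;> rfl
  have e2 : Fin.contractNth (1 : Fin 3) (· * ·) ![a, b, c] = ![a, b * c] := by
    ext i; fin_cases i <;> rfl
  have e3 : Fin.contractNth (2 : Fin 3) (· * ·) ![a, b, c] = ![a, b] := by
    ext i; fin_cases i <;> rfl
  rw [s3, dd_single, Fin.sum_univ_three, e0, e1, e2, e3]
  simp only [s2, Fin.val_zero, Fin.val_one, Fin.val_two]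
  norm_num
  abel

theorem dd_s4 (a b c e : G) : dd G 3 (s4 a b c e) =
    s3 b c e - s3 (a * b) c e + s3 a (b * c) e - s3 a b (c * e) + s3 a b c := by
  have e0 : (fun i : Fin 3 => ![a, b, c, e] i.succ) = ![b, c, e] := by
    ext i; fin_cases i <;> rfl
  have e1 : Fin.contractNth (0 : Fin 4) (· * ·) ![a, b, c, e] = ![a * b, c, e] := by
    ext i; fin_cases i <;> rfl
  have e2 : Fin.contractNth (1 : Fin 4) (· * ·) ![a, b, c, e] = ![a, b * c, e] := by
    ext i; fin_cases i <;> rfl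
  have e3 : Fin.contractNth (2 : Fin 4) (· * ·) ![a, b, c, e] = ![a, b, c * e] := by
    ext i; fin_cases i <;> rfl
  have e4 : Fin.contractNth (3 : Fin 4) (· * ·) ![a, b, c, e] = ![a, b, c] := by
    ext i; fin_cases i <;> rfl
  have v3 : ((3 : Fin 4) : ℕ) = 3 := rfl
  rw [s4, dd_single, Fin.sum_univ_four, e0, e1, e2, e3, e4]
  simp only [s3, Fin.val_zero, Fin.val_one, Fin.val_two, v3]
  norm_num
  abel

/-- The fundamental cycle of an element of order five. -/
noncomputable def zc (n : G) : Ch G 3 := ∑ k ∈ Finset.range 5, s3 n (n ^ k) n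

theorem tele {M : Type} [AddCommGroup M] (F : G → G → M) {n : G} (hn : n ^ 5 = 1) :
    ∑ k ∈ Finset.range 5, (F (n ^ k) n - F (n * n ^ k) n + F n (n ^ k * n) - F n (n ^ k)) = 0 := by
  simp only [← pow_succ, ← pow_succ', Finset.sum_range_succ, Finset.sum_range_zero, zero_add,
    Nat.reduceAdd, hn, pow_zero]
  abel

theorem dd_zc {n : G} (hn : n ^ 5 = 1) : dd G 2 (zc n) = 0 := by
  rw [zc, map_sum]
  simp only [dd_s3]
  exact tele s2 hn

theorem zc_conj {n : G} (hn : n ^ 5 = 1) (p : G) :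
    ∃ β : Ch G 4, dd G 3 β = zc (p * n * p⁻¹) - zc n := by
  obtain ⟨φ, hφ⟩ : ∃ φ : G →* G, φ = (MulAut.conj p).toMonoidHom := ⟨_, rfl⟩
  have h1 : ∀ a, φ a * p = p * a := fun a => by simp [hφ]
  have h2 : p * n * p⁻¹ = φ n := by simp [hφ]
  have key : ∀ a b c : G, dd G 3 (s4 p a b c - s4 (φ a) p b c + s4 (φ a) (φ b) p c -
      s4 (φ a) (φ b) (φ c) p) = s3 a b c - s3 (φ a) (φ b) (φ c) -
      ((fun a b => s3 p a b - s3 (φ a) p b + s3 (φ a) (φ b) p) b c -
        (fun a b => s3 p a b - s3 (φ a) p b + s3 (φ a) (φ b) p) (a * b) c +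
        (fun a b => s3 p a b - s3 (φ a) p b + s3 (φ a) (φ b) p) a (b * c) -
        (fun a b => s3 p a b - s3 (φ a) p b + s3 (φ a) (φ b) p) a b) := by
    intro a b c
    simp only [map_sub, map_add, dd_s4, h1, map_mul]
    abel
  refine ⟨-∑ k ∈ Finset.range 5, (s4 p n (n ^ k) n - s4 (φ n) p (n ^ k) n +
    s4 (φ n) (φ (n ^ k)) p n - s4 (φ n) (φ (n ^ k)) (φ n) p), ?_⟩
  rw [map_neg, map_sum]
  simp only [key]
  rw [Finset.sum_sub_distrib, tele (fun a b => s3 p a b - s3 (φ a) p b + s3 (φ a) (φ b) p) hn,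
    Finset.sum_sub_distrib, h2, zc, zc]
  simp only [map_pow]
  abel

theorem chains_zc (f : G →* H) (n : G) :
    ((chainsMap f (trivMap f)).f 3).hom (zc n) = zc (f n) := by
  rw [zc, zc, map_sum]
  refine Finset.sum_congr rfl fun k _ => ?_
  have e : f ∘ ![n, n ^ k, n] = ![f n, f n ^ k, f n] := by
    ext i; fin_cases i <;> simp
  rw [s3, s3, ← e]
  exact chainsMap_f_single f (trivMap f) 3 ![n, n ^ k, n] (1 : ℤ)

theorem noninj (f : G →* H) {a b : G} (ha : a ^ 5 = 1) (hb : b ^ 5 = 1) (p : H)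
    (hp : f a = p * f b * p⁻¹)
    (hc : ∀ s : Finset G, ∃ c : G → G → G → ZMod 5,
      (∀ g1 ∈ s, ∀ g2 ∈ s, ∀ g3 ∈ s, ∀ g4 ∈ s, c g2 g3 g4 - c (g1 * g2) g3 g4 +
        c g1 (g2 * g3) g4 - c g1 g2 (g3 * g4) + c g1 g2 g3 = 0) ∧
      ∑ k ∈ Finset.range 5, c a (a ^ k) a ≠ ∑ k ∈ Finset.range 5, c b (b ^ k) b) :
    ¬ Function.Injective (groupHomology.map f (trivMap f) 3) := by
  classical
  intro hinj
  have hγ : (inhomogeneousChains (Rep.trivial ℤ G ℤ)).d 3 2 (zc a - zc b) = 0 := by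
    rw [inhomogeneousChains.d_def]
    change dd G 2 (zc a - zc b) = 0
    rw [map_sub, dd_zc ha, dd_zc hb, sub_zero]
  obtain ⟨γ, hγi⟩ : ∃ γ : cycles (Rep.trivial ℤ G ℤ) 3,
      iCycles (Rep.trivial ℤ G ℤ) 3 γ = zc a - zc b :=
    ⟨cyclesMk 3 2 (by simp) _ hγ, iCycles_mk (by simp) _ hγ⟩
  have h0 : groupHomology.map f (trivMap f) 3 (π (Rep.trivial ℤ G ℤ) 3 γ) = 0 := by
    obtain ⟨β, hβ⟩ := zc_conj (n := f b) (by rw [← map_pow, hb, map_one]) p
    have e : cyclesMap f (trivMap f) 3 γ = toCycles (Rep.trivial ℤ H ℤ) 4 3 β := by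
      apply (ModuleCat.mono_iff_injective (iCycles (Rep.trivial ℤ H ℤ) 3)).1 inferInstance
      have e1 := ConcreteCategory.congr_hom
        (HomologicalComplex.cyclesMap_i (chainsMap f (trivMap f)) 3) γ
      have e2 := ConcreteCategory.congr_hom
        ((inhomogeneousChains (Rep.trivial ℤ H ℤ)).toCycles_i 4 3) β
      rw [ConcreteCategory.comp_apply, ConcreteCategory.comp_apply] at e1
      rw [ConcreteCategory.comp_apply, inhomogeneousChains.d_def] at e2
      refine e1.trans (Eq.trans ?_ e2.symm)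
      change ((chainsMap f (trivMap f)).f 3).hom (iCycles (Rep.trivial ℤ G ℤ) 3 γ) = dd H 3 β
      rw [hγi, hβ, map_sub, chains_zc, chains_zc, hp]
    rw [π_map_apply, e]
    exact ConcreteCategory.congr_hom
      ((inhomogeneousChains (Rep.trivial ℤ H ℤ)).toCycles_comp_homologyπ 4 3) β
  have h1 : π (Rep.trivial ℤ G ℤ) 3 γ = 0 := hinj (by rw [h0, map_zero])
  have hex := ShortComplex.exact_of_g_is_cokernel
    (ShortComplex.mk _ _ ((inhomogeneousChains (Rep.trivial ℤ G ℤ)).toCycles_comp_homologyπ 4 3))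
    ((inhomogeneousChains (Rep.trivial ℤ G ℤ)).homologyIsCokernel 4 3 (by simp))
  obtain ⟨β, hβ⟩ := (ShortComplex.moduleCat_exact_iff _).1 hex γ h1
  have hd : dd G 3 β = zc a - zc b := by
    have e2 := ConcreteCategory.congr_hom
      ((inhomogeneousChains (Rep.trivial ℤ G ℤ)).toCycles_i 4 3) β
    rw [ConcreteCategory.comp_apply, inhomogeneousChains.d_def] at e2
    rw [← hγi, ← hβ]
    exact e2.symm
  obtain ⟨β', hβ'⟩ : ∃ β' : Ch G 4, dd G 3 β' = zc a - zc b := ⟨β, hd⟩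
  obtain ⟨c, hc1, hc2⟩ := hc (β'.support.biUnion fun g => Finset.univ.image g)
  obtain ⟨L, hL⟩ : ∃ L : Ch G 3 →ₗ[ℤ] ZMod 5, ∀ x y z, L (s3 x y z) = c x y z :=
    ⟨Finsupp.linearCombination ℤ fun g => c (g 0) (g 1) (g 2), fun x y z => by simp [s3]⟩
  have h2 : L (dd G 3 β') = 0 := by
    rw [← β'.sum_single, Finsupp.sum, map_sum, map_sum]
    refine Finset.sum_eq_zero fun g hg => ?_
    have hm : ∀ i, g i ∈ β'.support.biUnion fun g => Finset.univ.image g := fun i =>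
      Finset.mem_biUnion.2 ⟨g, hg, Finset.mem_image_of_mem _ (Finset.mem_univ i)⟩
    have e : single g (β' g) = β' g • s4 (g 0) (g 1) (g 2) (g 3) := by
      have e' : ![g 0, g 1, g 2, g 3] = g := by
        ext i; fin_cases i <;> rfl
      rw [s4, e', smul_single, smul_eq_mul, mul_one]
    rw [e, map_smul, map_smul, dd_s4]
    simp only [map_add, map_sub, hL]
    rw [hc1 _ (hm 0) _ (hm 1) _ (hm 2) _ (hm 3), smul_zero]
  rw [hβ', map_sub, zc, zc, map_sum, map_sum] at h2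
  simp only [hL] at h2
  exact hc2 (sub_eq_zero.1 h2)

end Vale.Agent.P178
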