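import Vale.Agent.P178.El
import Vale.Agent.P178.Hom

/-! P178 Coc: the trace cocycle `tr(D₀g₁ D₁g₂ D₂g₃ (g₁g₂g₃)⁻¹)` and the abstract theorem. -/

namespace Vale.Agent.P178

open Finsupp Matrix

/-- A point with three derivations. -/
structure Der (A : Type) [CommRing A] where
  ψ : A →+* ZMod 5
  D : Fin 3 → A →+ ZMod 5
  leib : ∀ i a b, D i (a * b) = D i a * ψ b + ψ a * D i b

namespace Der

variable {A : Type} [CommRing A] (T : Der A) {ι κ : Type} [Fintype ι] [DecidableEq ι]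
  [Fintype κ] [DecidableEq κ]

theorem D_one (i : Fin 3) : T.D i 1 = 0 := by
  have e := T.leib i 1 1
  rw [mul_one, map_one T.ψ, mul_one, one_mul] at e
  exact left_eq_add.1 e

omit [DecidableEq ι] in
theorem map_mulD (i : Fin 3) (g h : Matrix ι ι A) :
    (g * h).map (T.D i) = g.map (T.D i) * h.map T.ψ + g.map T.ψ * h.map (T.D i) := by
  ext a b
  simp only [map_apply, Matrix.mul_apply, map_sum, T.leib, Matrix.add_apply, Finset.sum_add_distrib]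

omit [Fintype ι] in
theorem map_oneD (i : Fin 3) : (1 : Matrix ι ι A).map (T.D i) = 0 := by
  ext a b
  rw [map_apply, one_apply]
  split_ifs
  · exact T.D_one i
  · exact map_zero _

theorem map_powD (i : Fin 3) {g : Matrix ι ι A} (h : g.map (T.D i) = 0) (k : ℕ) :
    (g ^ k).map (T.D i) = 0 := by
  induction k with
  | zero => rw [pow_zero, map_oneD]
  | succ k ih => rw [pow_succ, map_mulD, ih, h, zero_mul, mul_zero, add_zero]

def cm (g1 g2 g3 e : Matrix ι ι A) : ZMod 5 :=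
  trace (g1.map (T.D 0) * g2.map (T.D 1) * g3.map (T.D 2) * e.map T.ψ)

omit [DecidableEq ι] in
theorem cm_cocycle (g1 g2 g3 g4 e : Matrix ι ι A) :
    T.cm g2 g3 g4 (e * g1) - T.cm (g1 * g2) g3 g4 e + T.cm g1 (g2 * g3) g4 e -
      T.cm g1 g2 (g3 * g4) e + T.cm g1 g2 g3 (g4 * e) = 0 := by
  simp only [cm, map_mulD, Matrix.map_mul, add_mul, mul_add, trace_add]
  rw [← Matrix.mul_assoc _ (e.map T.ψ), trace_mul_comm _ (g1.map T.ψ)]
  simp only [Matrix.mul_assoc]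
  ring

omit [DecidableEq ι] [DecidableEq κ] in
theorem cm_blocks (g1 g2 g3 e : Matrix ι ι A) (h1 h2 h3 e' : Matrix κ κ A) :
    T.cm (fromBlocks g1 0 0 h1) (fromBlocks g2 0 0 h2) (fromBlocks g3 0 0 h3)
      (fromBlocks e 0 0 e') = T.cm g1 g2 g3 e + T.cm h1 h2 h3 e' := by
  simp only [cm, fromBlocks_map, Matrix.map_zero _ (map_zero _), fromBlocks_multiply,
    Matrix.mul_zero, Matrix.zero_mul, add_zero, zero_add]
  simp [trace, Fintype.sum_sum_type]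

def val (M : Matrix ι ι A) : ZMod 5 := ∑ k ∈ Finset.range 5, T.cm M (M ^ k) M (M ^ (8 - k))

theorem val_zero {M : Matrix ι ι A} (h : M.map (T.D 0) = 0) : T.val M = 0 := by
  simp only [val, cm, h, Matrix.zero_mul, trace_zero, Finset.sum_const_zero]

theorem val_blocks (M : Matrix ι ι A) (N : Matrix κ κ A) :
    T.val (fromBlocks M 0 0 N) = T.val M + T.val N := by
  simp only [val, fromBlocks_diagonal_pow, cm_blocks, Finset.sum_add_distrib]

theorem val_MM {a b t : A} (h5 : MM a b t ^ 5 = 1) (h1 : T.ψ a = 0) (h2 : T.ψ b = 0)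
    (h3 : T.ψ t = 2) (ha : ∀ i, T.D i a = if i = 0 then 1 else 0)
    (hb : ∀ i, T.D i b = if i = 1 then 1 else 0) (ht : ∀ i, T.D i t = if i = 2 then 1 else 0) :
    T.val (MM a b t) + T.val (MM a b t ^ 4) = 2 := by
  have p1 : (MM a b t).map T.ψ = !![0, 4, 0, 0; 1, 2, 0, 0; 0, 0, 0, 4; 0, 0, 1, 2] := by
    ext i j
    fin_cases i <;> fin_cases j <;> simp [MM, h1, h2, h3] <;> decide
  have a1 : (MM a b t).map (T.D 0) = !![0, 0, 0, 0; 0, 0, 0, 0; 0, 4, 0, 0; 0, 0, 0, 0] := by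
    ext i j
    fin_cases i <;> fin_cases j <;> simp [MM, h1, h2, h3, ha, hb, ht, T.leib, T.D_one] <;> decide
  have b1 : (MM a b t).map (T.D 1) = !![0, 0, 0, 4; 0, 0, 0, 2; 0, 0, 0, 0; 0, 0, 0, 0] := by
    ext i j
    fin_cases i <;> fin_cases j <;> simp [MM, h1, h2, h3, ha, hb, ht, T.leib, T.D_one] <;> decide
  have t1 : (MM a b t).map (T.D 2) = !![0, 0, 0, 0; 0, 1, 0, 0; 0, 0, 0, 0; 0, 0, 0, 4] := by
    ext i j
    fin_cases i <;> fin_cases j <;> simp [MM, h1, h2, h3, ha, hb, ht, T.leib, T.D_one] <;> decide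
  generalize MM a b t = M at h5 p1 a1 b1 t1
  have p0 : (1 : Matrix (Fin 4) (Fin 4) A).map T.ψ =
      !![1, 0, 0, 0; 0, 1, 0, 0; 0, 0, 1, 0; 0, 0, 0, 1] := by
    rw [Matrix.map_one _ (map_zero _) (map_one _)]
    decide
  have p2 : (M ^ 2).map T.ψ = !![4, 3, 0, 0; 2, 3, 0, 0; 0, 0, 4, 3; 0, 0, 2, 3] := by
    rw [pow_two, Matrix.map_mul, p1]
    decide
  have p3 : (M ^ 3).map T.ψ = !![3, 2, 0, 0; 3, 4, 0, 0; 0, 0, 3, 2; 0, 0, 3, 4] := by
    rw [pow_succ, Matrix.map_mul, p1, p2]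
    decide
  have p4 : (M ^ 4).map T.ψ = !![2, 1, 0, 0; 4, 0, 0, 0; 0, 0, 2, 1; 0, 0, 4, 0] := by
    rw [pow_succ, Matrix.map_mul, p1, p3]
    decide
  have a2 : (M ^ 2).map (T.D 0) = !![0, 0, 0, 0; 0, 0, 0, 0; 4, 3, 0, 0; 0, 4, 0, 0] := by
    rw [pow_two, map_mulD, p1, a1]
    decide
  have a3 : (M ^ 3).map (T.D 0) = !![0, 0, 0, 0; 0, 0, 0, 0; 3, 3, 0, 0; 4, 1, 0, 0] := by
    rw [pow_succ, map_mulD, p1, a1, p2, a2]
    decide
  have a4 : (M ^ 4).map (T.D 0) = !![0, 0, 0, 0; 0, 0, 0, 0; 3, 0, 0, 0; 1, 0, 0, 0] := by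
    rw [pow_succ, map_mulD, p1, a1, p3, a3]
    decide
  have b2 : (M ^ 2).map (T.D 1) = !![0, 0, 4, 1; 0, 0, 2, 2; 0, 0, 0, 0; 0, 0, 0, 0] := by
    rw [pow_two, map_mulD, p1, b1]
    decide
  have b3 : (M ^ 3).map (T.D 1) = !![0, 0, 1, 0; 0, 0, 2, 1; 0, 0, 0, 0; 0, 0, 0, 0] := by
    rw [pow_succ, map_mulD, p1, b1, p2, b2]
    decide
  have b4 : (M ^ 4).map (T.D 1) = !![0, 0, 0, 0; 0, 0, 1, 0; 0, 0, 0, 0; 0, 0, 0, 0] := by
    rw [pow_succ, map_mulD, p1, b1, p3, b3]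
    decide
  have t2 : (M ^ 2).map (T.D 2) = !![0, 4, 0, 0; 1, 4, 0, 0; 0, 0, 0, 1; 0, 0, 4, 1] := by
    rw [pow_two, map_mulD, p1, t1]
    decide
  have t3 : (M ^ 3).map (T.D 2) = !![4, 1, 0, 0; 4, 0, 0, 0; 0, 0, 1, 4; 0, 0, 1, 0] := by
    rw [pow_succ, map_mulD, p1, t1, p2, t2]
    decide
  have t4 : (M ^ 4).map (T.D 2) = !![1, 0, 0, 0; 0, 0, 0, 0; 0, 0, 4, 0; 0, 0, 0, 0] := by
    rw [pow_succ, map_mulD, p1, t1, p3, t3]
    decide
  have hm : ∀ k, M ^ k = M ^ (k % 5) := fun k => pow_eq_pow_mod k h5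
  have e1 : T.val M = T.cm M 1 M (M ^ 3) + T.cm M M M (M ^ 2) + T.cm M (M ^ 2) M M +
      T.cm M (M ^ 3) M 1 + T.cm M (M ^ 4) M (M ^ 4) := by
    simp only [val, Finset.sum_range_succ, Finset.sum_range_zero, zero_add, Nat.reduceSub]
    rw [hm 8, hm 7, hm 6, h5]
    simp only [Nat.reduceMod, pow_zero, pow_one]
  have e2 : T.val (M ^ 4) = T.cm (M ^ 4) 1 (M ^ 4) (M ^ 2) + T.cm (M ^ 4) (M ^ 4) (M ^ 4) (M ^ 3) +
      T.cm (M ^ 4) (M ^ 3) (M ^ 4) (M ^ 4) + T.cm (M ^ 4) (M ^ 2) (M ^ 4) 1 +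
      T.cm (M ^ 4) M (M ^ 4) M := by
    simp only [val, Finset.sum_range_succ, Finset.sum_range_zero, zero_add, Nat.reduceSub,
      ← pow_mul, Nat.reduceMul]
    rw [hm 32, hm 28, hm 24, hm 20, hm 16, hm 12, hm 8]
    simp only [Nat.reduceMod, pow_zero, pow_one]
  rw [e1, e2]
  simp only [cm, map_oneD, p0, p1, p2, p3, p4, a1, a4, b1, b2, b3, b4, t1, t4]
  decide +kernel

end Der

/-- The remaining indices. -/
abbrev Rest (n : ℕ) : Type := {k : Fin n // ¬ (k.1 < 4 ∨ (5 ≤ k.1 ∧ k.1 < 9))}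

def sg (n : ℕ) : Fin 4 ⊕ Fin 4 ⊕ Rest n → ℕ :=
  Sum.elim Fin.val (Sum.elim (fun i => i.1 + 5) fun k => k.1.1)

theorem sg_inj (n : ℕ) : Function.Injective (sg n) := by
  rintro (i | i | ⟨i, hi⟩) (j | j | ⟨j, hj⟩) h <;> simp only [sg, Sum.elim_inl, Sum.elim_inr] at h <;>
    first | omega | (congr; omega)

theorem sg_range (n : ℕ) : Set.Iio n ⊆ Set.range (sg n) := by
  intro k hk
  by_cases h1 : k < 4
  · exact ⟨Sum.inl ⟨k, h1⟩, rfl⟩
  · by_cases h2 : 5 ≤ k ∧ k < 9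
    · exact ⟨Sum.inr (Sum.inl ⟨k - 5, by omega⟩), by change k - 5 + 5 = k; omega⟩
    · exact ⟨Sum.inr (Sum.inr ⟨⟨k, hk⟩, by simp only; omega⟩), rfl⟩

variable {R : Type} [CommRing R]

theorem mat_sg_left (n : ℕ) {a : St R} (ha : a ∈ Sub R (Set.Iio 4)) :
    mat (sg n) a = fromBlocks (mat Fin.val a) 0 0 1 := by
  have h0 : ∀ j : Fin 4 ⊕ Rest n, sg n (Sum.inr j) ∉ Set.Iio 4 := by
    rintro (j | ⟨j, hj⟩) <;> simp only [sg, Sum.elim_inl, Sum.elim_inr, Set.mem_Iio] <;> omega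
  ext (i | i) (j | j)
  · rfl
  · rw [mat, of_apply, ent_out ha (Or.inr (h0 j)), if_neg ((sg_inj n).ne (by simp))]
    rfl
  · rw [mat, of_apply, ent_out ha (Or.inl (h0 i)), if_neg ((sg_inj n).ne (by simp))]
    rfl
  · rw [mat, of_apply, ent_out ha (Or.inl (h0 i)), fromBlocks_apply₂₂, one_apply]
    simp only [(sg_inj n).eq_iff, Sum.inr.injEq, eq_comm]

theorem mat_sg_right (n : ℕ) {a : St R} (ha : a ∈ Sub R (Set.Iio 4)) :
    mat (sg n) (ww R * a * (ww R)⁻¹) = fromBlocks 1 0 0 (fromBlocks (mat Fin.val a) 0 0 1) := by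
  obtain ⟨a', ha', e⟩ := exists_shift ha
  have h0 : ∀ j : Fin 4, sg n (Sum.inl j) ∉ Set.Ico 5 9 := by
    intro j
    simp only [sg, Sum.elim_inl, Set.mem_Ico]
    omega
  have h1 : ∀ j : Rest n, sg n (Sum.inr (Sum.inr j)) ∉ Set.Ico 5 9 := by
    rintro ⟨j, hj⟩
    simp only [sg, Sum.elim_inr, Set.mem_Ico]
    omega
  have out : ∀ i j, (sg n i ∉ Set.Ico 5 9 ∨ sg n j ∉ Set.Ico 5 9) →
      mat (sg n) (ww R * a * (ww R)⁻¹) i j = if i = j then 1 else 0 := by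
    intro i j h
    rw [mat, of_apply, e, ent_out ha' h]
    simp only [(sg_inj n).eq_iff, eq_comm]
  ext (i | i | i) (j | j | j)
  · rw [out _ _ (Or.inl (h0 i))]
    simp [one_apply]
  · rw [out _ _ (Or.inl (h0 i))]
    simp
  · rw [out _ _ (Or.inl (h0 i))]
    simp
  · rw [out _ _ (Or.inr (h0 j))]
    simp
  · exact ent_ww a (by omega) (by omega)
  · rw [out _ _ (Or.inr (h1 j))]
    simp
  · rw [out _ _ (Or.inr (h0 j))]
    simp
  · rw [out _ _ (Or.inl (h1 i))]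
    simp
  · rw [out _ _ (Or.inl (h1 i))]
    simp [one_apply]

theorem dbl_mem {a : St R} (ha : a ∈ Sub R (Set.Iio 4)) : dbl a ∈ Sub R (Set.Iio 10) := by
  have h := Sub_mono (Set.Iio_subset_Iio (by norm_num : 4 ≤ 10)) ha
  exact mul_mem h (inv_mem (mul_mem (mul_mem ww_mem h) (inv_mem ww_mem)))

theorem mat_dbl {n : ℕ} (hn : 10 ≤ n) {a b t : R} (h : a * b = t ^ 2 + t - 1) :
    mat (sg n) (dbl (mt a b t)) =
      fromBlocks (MM a b t) 0 0 (fromBlocks (MM a b t ^ 4) 0 0 1) := by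
  have hm : mt a b t ∈ Sub R (Set.range (Fin.val : Fin 4 → ℕ)) := range_val4 ▸ mt_mem a b t
  have h10 : ∀ {g : St R}, g ∈ Sub R (Set.Iio 10) → g ∈ Sub R (Set.range (sg n)) := fun hg =>
    Sub_mono ((Set.Iio_subset_Iio hn).trans (sg_range n)) hg
  have h4 := Sub_mono (Set.Iio_subset_Iio (by norm_num : 4 ≤ 10)) (inv_mem (mt_mem a b t))
  have e : dbl (mt a b t) = mt a b t * (ww R * (mt a b t)⁻¹ * (ww R)⁻¹) := by
    rw [dbl]
    group
  have e2 : mat Fin.val (mt a b t)⁻¹ = MM a b t ^ 4 := by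
    have e3 : mat Fin.val (mt a b t)⁻¹ * MM a b t = 1 := by
      rw [← mat_mt, ← mat_mul Fin.val_injective _ hm, inv_mul_cancel,
        mat_of_one Fin.val_injective (map_one _)]
    calc mat Fin.val (mt a b t)⁻¹ = mat Fin.val (mt a b t)⁻¹ * MM a b t ^ 5 := by
          rw [MM_pow h, mul_one]
      _ = _ := by rw [pow_succ', ← mul_assoc, e3, one_mul]
  rw [e, mat_mul (sg_inj n) _ (h10 (mul_mem (mul_mem ww_mem h4) (inv_mem ww_mem))),
    mat_sg_left n (mt_mem a b t), mat_sg_right n (inv_mem (mt_mem a b t)), mat_mt, e2,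
    fromBlocks_multiply]
  simp

theorem main_abs {A F : Type} [CommRing A] [Field F] (f : A →+* F) (T : Der A) {a b t : A}
    (h : a * b = t ^ 2 + t - 1) (hf : f a ≠ 0) (h1 : T.ψ a = 0) (h2 : T.ψ b = 0)
    (h3 : T.ψ t = 2) (ha : ∀ i, T.D i a = if i = 0 then 1 else 0)
    (hb : ∀ i, T.D i b = if i = 1 then 1 else 0) (ht : ∀ i, T.D i t = if i = 2 then 1 else 0) :
    ¬ Function.Injective (K3Map f) := by
  have h' : 1 * (a * b) = t ^ 2 + t - 1 := by rw [one_mul, h]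
  have q0 : dbl (mt 1 (a * b) t) ^ 5 = 1 := dbl_pow (mt_mem5 _ _ _) (pi_mt_pow h')
  have q1 : dbl (mt a b t) ^ 5 = 1 := dbl_pow (mt_mem5 _ _ _) (pi_mt_pow h)
  obtain ⟨q, hq⟩ := dbl_conj (mt_mem5 (f a) (f b) (f t)) (hh_mem (f a) (f a)⁻¹)
    (pi_conj (mul_inv_cancel₀ hf) (f b) (f t))
  refine noninj (stMap f) q0 q1 q ?_ fun s => ?_
  · rw [stMap_dbl, stMap_dbl, stMap_mt, stMap_mt, map_one, map_mul, hq]
  choose N hN using exists_bound (R := A)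
  obtain ⟨n, hn, hs⟩ : ∃ n, 10 ≤ n ∧ ∀ g ∈ s, g ∈ Sub A (Set.range (sg n)) :=
    ⟨s.sup N + 10, by omega, fun g hg => Sub_mono ((Set.Iio_subset_Iio
      ((Finset.le_sup hg).trans (Nat.le_add_right _ _))).trans (sg_range _)) (hN g)⟩
  have hval : ∀ g : St A, g ∈ Sub A (Set.Iio 10) → g ^ 5 = 1 →
      ∑ k ∈ Finset.range 5, T.cm (mat (sg n) g) (mat (sg n) (g ^ k)) (mat (sg n) g)
        (mat (sg n) (g * g ^ k * g)⁻¹) = T.val (mat (sg n) g) := by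
    intro g hg h5
    have hg' := Sub_mono ((Set.Iio_subset_Iio hn).trans (sg_range n)) hg
    refine Finset.sum_congr rfl fun k hk => ?_
    have e : (g * g ^ k * g)⁻¹ = g ^ (8 - k) := by
      rw [inv_eq_iff_mul_eq_one, ← pow_succ', ← pow_succ, ← pow_add,
        show k + 1 + 1 + (8 - k) = 5 * 2 by have := Finset.mem_range.1 hk; omega, pow_mul, h5,
        one_pow]
    rw [e, mat_pow (sg_inj n) hg', mat_pow (sg_inj n) hg']
  refine ⟨fun g1 g2 g3 => T.cm (mat (sg n) g1) (mat (sg n) g2) (mat (sg n) g3)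
    (mat (sg n) (g1 * g2 * g3)⁻¹), ?_, ?_⟩
  · intro g1 m1 g2 m2 g3 m3 g4 m4
    have e1 : (g2 * g3 * g4)⁻¹ = (g1 * g2 * g3 * g4)⁻¹ * g1 := by group
    have e2 : (g1 * g2 * g3)⁻¹ = g4 * (g1 * g2 * g3 * g4)⁻¹ := by group
    have e3 : g1 * (g2 * g3) * g4 = g1 * g2 * g3 * g4 := by group
    have e4 : g1 * g2 * (g3 * g4) = g1 * g2 * g3 * g4 := by group
    simp only []
    rw [e1, e2, e3, e4, mat_mul (sg_inj n) _ (hs g1 m1), mat_mul (sg_inj n) g1 (hs g2 m2),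
      mat_mul (sg_inj n) g2 (hs g3 m3), mat_mul (sg_inj n) g3 (hs g4 m4),
      mat_mul (sg_inj n) g4 (inv_mem (mul_mem (mul_mem (mul_mem (hs g1 m1) (hs g2 m2))
        (hs g3 m3)) (hs g4 m4)))]
    exact T.cm_cocycle _ _ _ _ _
  · have z0 : (MM 1 (a * b) t).map (T.D 0) = 0 := by
      ext i j
      fin_cases i <;> fin_cases j <;> simp [MM, h1, h2, ha, hb, ht, T.leib, T.D_one]
    rw [hval _ (dbl_mem (mt_mem _ _ _)) q0, hval _ (dbl_mem (mt_mem _ _ _)) q1, mat_dbl hn h,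
      mat_dbl hn h', T.val_blocks, T.val_blocks, T.val_blocks, T.val_blocks,
      T.val_zero z0, T.val_zero (T.map_powD 0 z0 4), T.val_zero (T.map_oneD 0), add_zero, add_zero,
      add_zero, T.val_MM (MM_pow h) h1 h2 h3 ha hb ht]
    decide

end Vale.Agent.P178
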