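import Mathlib

/-! P178: the stable Steinberg group `St(R)` and `K₃(R) = H₃(St(R), ℤ)` (Gersten 1973). -/

namespace Vale.Agent.P178

open CategoryTheory

/-- The generators `x_{ij}(r)`, `i ≠ j` natural numbers, `r ∈ R`. -/
abbrev StGen (R : Type) : Type := {p : ℕ × ℕ // p.1 ≠ p.2} × R

/-- The generator `x_{ij}(r)` in the free group. -/
def xf {R : Type} (i j : ℕ) (h : i ≠ j) (r : R) : FreeGroup (StGen R) :=
  FreeGroup.of (⟨(i, j), h⟩, r)

/-- The Steinberg relations. -/
def stRels (R : Type) [CommRing R] : Set (FreeGroup (StGen R)) :=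
  {w | (∃ (i j : ℕ) (h : i ≠ j) (r s : R),
          w = xf i j h r * xf i j h s * (xf i j h (r + s))⁻¹) ∨
       (∃ (i j k : ℕ) (hij : i ≠ j) (hjk : j ≠ k) (hik : i ≠ k) (r s : R),
          w = xf i j hij r * xf j k hjk s * (xf i j hij r)⁻¹ * (xf j k hjk s)⁻¹ *
            (xf i k hik (r * s))⁻¹) ∨
       (∃ (i j k l : ℕ) (hij : i ≠ j) (hkl : k ≠ l) (r s : R), j ≠ k ∧ i ≠ l ∧
          w = xf i j hij r * xf k l hkl s * (xf i j hij r)⁻¹ * (xf k l hkl s)⁻¹)}

/-- The stable Steinberg group. -/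
abbrev St (R : Type) [CommRing R] : Type := PresentedGroup (stRels R)

theorem stMap_rel {R S : Type} [CommRing R] [CommRing S] (f : R →+* S) :
    ∀ w ∈ stRels R,
      FreeGroup.lift (fun g : StGen R => (PresentedGroup.of (g.1, f g.2) : St S)) w = 1 := by
  have key : ∀ (i j : ℕ) (h : i ≠ j) (r : R),
      FreeGroup.lift (fun g : StGen R => (PresentedGroup.of (g.1, f g.2) : St S)) (xf i j h r) =
        PresentedGroup.mk (stRels S) (xf i j h (f r)) := fun i j h r => FreeGroup.lift_apply_of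
  rintro w (⟨i, j, h, r, s, rfl⟩ | ⟨i, j, k, hij, hjk, hik, r, s, rfl⟩ |
    ⟨i, j, k, l, hij, hkl, r, s, h1, h2, rfl⟩)
  · simp only [map_mul, map_inv, key]
    exact PresentedGroup.one_of_mem (rels := stRels S)
      (Or.inl ⟨i, j, h, f r, f s, by rw [← map_add f]⟩)
  · simp only [map_mul, map_inv, key]
    exact PresentedGroup.one_of_mem (rels := stRels S)
      (Or.inr (Or.inl ⟨i, j, k, hij, hjk, hik, f r, f s, rfl⟩))
  · simp only [map_mul, map_inv, key]
    exact PresentedGroup.one_of_mem (rels := stRels S)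
      (Or.inr (Or.inr ⟨i, j, k, l, hij, hkl, f r, f s, h1, h2, rfl⟩))

/-- The homomorphism `St(R) → St(S)`, `x_{ij}(r) ↦ x_{ij}(f r)`. -/
def stMap {R S : Type} [CommRing R] [CommRing S] (f : R →+* S) : St R →* St S :=
  PresentedGroup.toGroup (stMap_rel f)

/-- The identity of `ℤ` as a map of trivial representations along `f`. -/
noncomputable def trivMap {G H : Type} [Group G] [Group H] (f : G →* H) :
    Rep.trivial ℤ G ℤ ⟶ Rep.res f (Rep.trivial ℤ H ℤ) :=
  Rep.ofHom (ρ := Representation.trivial ℤ G ℤ) (σ := (Representation.trivial ℤ H ℤ).comp f)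
    ⟨LinearMap.id, fun _ => rfl⟩

/-- `K₃(R) = H₃(St(R), ℤ)`. -/
noncomputable abbrev K3 (R : Type) [CommRing R] : ModuleCat ℤ :=
  groupHomology (Rep.trivial ℤ (St R) ℤ) 3

/-- The map `K₃(R) → K₃(S)` induced by a ring homomorphism. -/
noncomputable def K3Map {R S : Type} [CommRing R] [CommRing S] (f : R →+* S) : K3 R ⟶ K3 S :=
  groupHomology.map (stMap f) (trivMap (stMap f)) 3

end Vale.Agent.P178
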