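import Vale.Agent.P178.Blk

/-! P178 El: the elements of order five. -/

namespace Vale.Agent.P178

open Finsupp

variable {R : Type} [CommRing R]

def mt (a b t : R) : St R :=
  x 2 0 (by norm_num) a * (x 0 1 (by norm_num) (-1) * x 1 0 (by norm_num) 1 *
    x 0 1 (by norm_num) (t - 1)) * (x 2 3 (by norm_num) (-1) * x 3 2 (by norm_num) 1 *
    x 2 3 (by norm_num) (-2 - t)) * x 1 3 (by norm_num) b

def MM (a b t : R) : Matrix (Fin 4) (Fin 4) R :=
  !![0, -1, 0, -b; 1, t, 0, b * t; 0, -a, 0, -1 - a * b; 0, 0, 1, -1 - t]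

theorem mt_mem (a b t : R) : mt a b t ∈ Sub R (Set.Iio 4) := by
  refine mul_mem (mul_mem (mul_mem ?_ (mul_mem (mul_mem ?_ ?_) ?_)) (mul_mem (mul_mem ?_ ?_) ?_))
    ?_ <;> exact x_mem _ _ (by norm_num) (by norm_num)

theorem mt_mem5 (a b t : R) : mt a b t ∈ Sub R (Set.Iio 5) :=
  Sub_mono (Set.Iio_subset_Iio (by norm_num)) (mt_mem a b t)

theorem stMap_mt {S : Type} [CommRing S] (f : R →+* S) (a b t : R) :
    stMap f (mt a b t) = mt (f a) (f b) (f t) := by
  simp only [mt, map_mul, stMap_x, map_one, map_neg, map_sub, map_ofNat]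

theorem pi_mt (a b t : R) (v : ℕ →₀ R) (k : ℕ) : pi (mt a b t) v k =
    if k = 0 then -v 1 - b * v 3 else if k = 1 then v 0 + t * v 1 + b * t * v 3 else
    if k = 2 then -a * v 1 - (1 + a * b) * v 3 else if k = 3 then v 2 - (1 + t) * v 3 else v k := by
  by_cases hk : k < 4
  · interval_cases k <;> simp [mt, pi_x_apply] <;> ring
  · rw [pi_out (mt_mem a b t) hk, if_neg (by omega), if_neg (by omega), if_neg (by omega),
      if_neg (by omega)]

theorem mat_mt (a b t : R) : mat (Fin.val : Fin 4 → ℕ) (mt a b t) = MM a b t := by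
  ext i j
  fin_cases i <;> fin_cases j <;> simp [mat, pi_mt, MM] <;> ring

theorem range_val4 : Set.range (Fin.val : Fin 4 → ℕ) = Set.Iio 4 := Fin.range_val

theorem MM_pow {a b t : R} (h : a * b = t ^ 2 + t - 1) : MM a b t ^ 5 = 1 := by
  obtain ⟨N, hN⟩ : ∃ N : Matrix (Fin 4) (Fin 4) R, N = !![-1, -t, -b, b;
    t, t ^ 2 - 1, b * t, -b - b * t; -a, -a * t, -1 - a * b, 1 + t + a * b;
    0, -a, -1 - t, -1 - a * b + (1 + t) ^ 2] := ⟨_, rfl⟩
  have e2 : MM a b t * MM a b t = N := by
    rw [hN]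
    ext i j
    fin_cases i <;> fin_cases j <;> simp [MM, Matrix.mul_apply, Fin.sum_univ_four] <;> ring
  have e : N * (N + MM a b t) + N + MM a b t + 1 = (t ^ 2 + t - 1 - a * b) • N := by
    rw [hN]
    ext i j
    fin_cases i <;> fin_cases j <;>
      simp [MM, Matrix.mul_apply, Fin.sum_univ_four] <;> ring
  rw [h, sub_self, zero_smul, ← e2] at e
  calc MM a b t ^ 5 = (MM a b t - 1) * (MM a b t * MM a b t * (MM a b t * MM a b t + MM a b t) +
        MM a b t * MM a b t + MM a b t + 1) + 1 := by noncomm_ring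
    _ = 1 := by rw [e, mul_zero, zero_add]

theorem pi_mt_pow {a b t : R} (h : a * b = t ^ 2 + t - 1) : pi (mt a b t ^ 5) = 1 := by
  have hm : mt a b t ∈ Sub R (Set.range (Fin.val : Fin 4 → ℕ)) := range_val4 ▸ mt_mem a b t
  refine pi_eq_one Fin.val_injective (pow_mem hm 5) ?_
  rw [mat_pow Fin.val_injective hm, mat_mt, MM_pow h]

def hh (u v : R) : St R :=
  wab 0 4 (by norm_num) u v * wab 0 4 (by norm_num) (-1) (-1) *
    (wab 1 4 (by norm_num) u v * wab 1 4 (by norm_num) (-1) (-1))

theorem hh_mem (u v : R) : hh u v ∈ Sub R (Set.Iio 5) := by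
  refine mul_mem (mul_mem ?_ ?_) (mul_mem ?_ ?_) <;> exact wab_mem _ _ _ (by norm_num) (by norm_num)

theorem pi_wab {a b : ℕ} (h : a ≠ b) {u v : R} (huv : u * v = 1) (y : ℕ →₀ R) (k : ℕ) :
    pi (wab a b h u v) y k = if k = a then u * y b else if k = b then -v * y a else y k := by
  simp only [wab, pi_mul, pi_x_apply, if_true, if_neg h]
  by_cases ha : k = a
  · subst ha
    simp only [if_true, if_neg h.symm]
    linear_combination (-y k - u * y b) * huv
  · by_cases hb : k = b
    · subst hb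
      simp only [if_true, if_neg h, if_neg ha]
      linear_combination (-y k) * huv
    · simp only [if_neg ha, if_neg hb, if_neg (Ne.symm ha), if_neg (Ne.symm hb), add_zero]

theorem pi_hh {u v : R} (huv : u * v = 1) (y : ℕ →₀ R) (k : ℕ) :
    pi (hh u v) y k = if k < 2 then u * y k else if k = 4 then v * v * y k else y k := by
  have h1 : (-1 : R) * -1 = 1 := by ring
  simp only [hh, pi_mul, pi_wab _ huv, pi_wab _ h1]
  by_cases hk : k < 5
  · interval_cases k <;> simp <;> ring
  · rw [if_neg (by omega), if_neg (by omega), if_neg (by omega), if_neg (by omega),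
      if_neg (by omega), if_neg (by omega), if_neg (by omega), if_neg (by omega),
      if_neg (by omega), if_neg (by omega)]

theorem pi_conj {u v : R} (huv : u * v = 1) (b t : R) :
    pi (mt 1 (u * b) t) = pi (hh u v * mt u b t * (hh u v)⁻¹) := by
  rw [map_mul pi _ (hh u v)⁻¹, map_inv, eq_mul_inv_iff_mul_eq, ← map_mul]
  ext y k
  simp only [pi_mul, pi_mt, pi_hh huv]
  by_cases hk : k < 5
  · interval_cases k <;> simp <;> ring
  · rw [if_neg (by omega), if_neg (by omega), if_neg (by omega), if_neg (by omega),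
      if_neg (by omega), if_neg (by omega), if_neg (by omega), if_neg (by omega),
      if_neg (by omega), if_neg (by omega), if_neg (by omega), if_neg (by omega)]

end Vale.Agent.P178
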