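import Vale.Agent.P178.Coc

/-! P178 Ring: the regular local ring `ℤ[x, y, u]_(x, y, u) / (x y - u² + 5)`. -/

namespace Vale.Agent.P178

open Polynomial

noncomputable section

def fB : ℤ[X][X][X] := C X * X + C (C (5 - X ^ 2))

abbrev BB : Type := AdjoinRoot fB

def bx : BB := AdjoinRoot.of fB X

def bu : BB := AdjoinRoot.of fB (C X)

def bv : BB := AdjoinRoot.root fB

def ev {S : Type} [CommRing S] (x y u : S) (h : x * y = u ^ 2 - 5) : BB →+* S :=
  AdjoinRoot.lift (eval₂RingHom (eval₂RingHom (Int.castRingHom S) u) x) y (by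
    simp only [fB, eval₂_add, eval₂_mul, eval₂_C, eval₂_X, coe_eval₂RingHom, eval₂_sub, eval₂_pow,
      eval₂_ofNat]
    linear_combination h)

variable {S : Type} [CommRing S] {x y u : S} (h : x * y = u ^ 2 - 5)

theorem ev_x : ev x y u h bx = x := by simp [ev, bx]

theorem ev_u : ev x y u h bu = u := by simp [ev, bu]

theorem ev_v : ev x y u h bv = y := by simp [ev, bv]

theorem hom_ext {f g : BB →+* S} (h1 : f bx = g bx) (h2 : f bv = g bv) (h3 : f bu = g bu) :
    f = g :=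
  AdjoinRoot.ringHom_ext (Polynomial.ringHom_ext' (Polynomial.ringHom_ext' (RingHom.ext_int _ _)
    h3) h1) h2

theorem b_rel : bx * bv = bu ^ 2 - 5 := by
  have e : eval₂ (AdjoinRoot.of fB) bv (C X * X + C (C (5 - X ^ 2))) = 0 :=
    AdjoinRoot.eval₂_root fB
  rw [eval₂_add, eval₂_mul, eval₂_C, eval₂_X, eval₂_C, map_sub, map_sub, map_pow, map_pow,
    map_ofNat, map_ofNat] at e
  change bx * bv + (5 - bu ^ 2) = 0 at e
  linear_combination e

instance : IsDomain BB := by
  refine AdjoinRoot.isDomain_of_prime (Irreducible.prime ?_)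
  refine irreducible_C_mul_X_add_C X_ne_zero (prime_X.irreducible.isRelPrime_iff_not_dvd.2 ?_)
  rw [X_dvd_iff, coeff_C_zero]
  intro e
  have := congrArg (eval 0) e
  norm_num at this

instance : Fact (Nat.Prime 5) := ⟨by norm_num⟩

theorem rel5 : (0 : ZMod 5) * 0 = 0 ^ 2 - 5 := by decide

def mB : Ideal BB := RingHom.ker (ev 0 0 0 rel5)

instance : mB.IsPrime := RingHom.ker_isPrime _

theorem mB_eq : mB = Ideal.span {bx, bv, bu} := by
  apply le_antisymm
  · intro b hb
    have hx : Ideal.Quotient.mk (Ideal.span {bx, bv, bu}) bx = 0 :=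
      Ideal.Quotient.eq_zero_iff_mem.2 (Ideal.subset_span (by simp))
    have hv : Ideal.Quotient.mk (Ideal.span {bx, bv, bu}) bv = 0 :=
      Ideal.Quotient.eq_zero_iff_mem.2 (Ideal.subset_span (by simp))
    have hu : Ideal.Quotient.mk (Ideal.span {bx, bv, bu}) bu = 0 :=
      Ideal.Quotient.eq_zero_iff_mem.2 (Ideal.subset_span (by simp))
    have h5 : ((5 : ℕ) : BB ⧸ Ideal.span {bx, bv, bu}) = 0 := by
      have e := congrArg (Ideal.Quotient.mk (Ideal.span {bx, bv, bu})) b_rel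
      rw [map_mul, map_sub, map_pow, hx, hu, map_ofNat] at e
      push_cast
      linear_combination e
    have e : Ideal.Quotient.mk (Ideal.span {bx, bv, bu}) =
        (ZMod.castHom (ringChar.dvd h5) _).comp (ev 0 0 0 rel5) :=
      hom_ext (by rw [hx, RingHom.comp_apply, ev_x, map_zero])
        (by rw [hv, RingHom.comp_apply, ev_v, map_zero])
        (by rw [hu, RingHom.comp_apply, ev_u, map_zero])
    rw [← Ideal.Quotient.eq_zero_iff_mem, e, RingHom.comp_apply, RingHom.mem_ker.1 hb, map_zero]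
  · rw [Ideal.span_le]
    rintro _ (rfl | rfl | rfl)
    · exact ev_x rel5
    · exact ev_v rel5
    · exact ev_u rel5

instance : Zsqrtd.Nonsquare 5 := ⟨fun n hn => by
  have h1 : n ≤ 2 := by nlinarith
  interval_cases n <;> omega⟩

theorem three_le_height : (3 : ℕ∞) ≤ mB.height := by
  have r2 : (0 : ℤ√((5 : ℕ) : ℤ)) * 0 = Zsqrtd.sqrtd ^ 2 - 5 := by decide
  have r1 : (0 : (ℤ√((5 : ℕ) : ℤ))[X]) * X = C Zsqrtd.sqrtd ^ 2 - 5 := by
    have e := congrArg C r2
    rw [map_sub, map_pow, map_ofNat, zero_mul, map_zero] at e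
    rw [← e, zero_mul]
  have e2 : ev 0 0 _ r2 = (evalRingHom 0).comp (ev 0 X _ r1) :=
    hom_ext (by rw [RingHom.comp_apply, ev_x, ev_x, map_zero])
      (by rw [RingHom.comp_apply, ev_v, ev_v]; simp) (by rw [RingHom.comp_apply, ev_u, ev_u]; simp)
  have e3 : ev 0 0 0 rel5 = (Zsqrtd.lift ⟨0, by decide⟩).comp (ev 0 0 _ r2) :=
    hom_ext (by rw [RingHom.comp_apply, ev_x, ev_x, map_zero])
      (by rw [RingHom.comp_apply, ev_v, ev_v, map_zero])
      (by rw [RingHom.comp_apply, ev_u, ev_u]; simp)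
  have p1 : (RingHom.ker (ev 0 X _ r1)).IsPrime := RingHom.ker_isPrime _
  have p2 : (RingHom.ker (ev 0 0 _ r2)).IsPrime := RingHom.ker_isPrime _
  have l1 : (⊥ : Ideal BB) < RingHom.ker (ev 0 X _ r1) := by
    refine bot_lt_iff_ne_bot.2 fun e => ?_
    have h1 : bx ∈ RingHom.ker (ev 0 X _ r1) := ev_x r1
    rw [e, Ideal.mem_bot] at h1
    have h2 := ev_x (S := ℤ) (x := 1) (y := -5) (u := 0) (by norm_num)
    rw [h1, map_zero] at h2
    exact zero_ne_one h2
  have l2 : RingHom.ker (ev 0 X _ r1) < RingHom.ker (ev 0 0 _ r2) := by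
    refine lt_of_le_of_ne (fun b hb => ?_) fun e => ?_
    · rw [RingHom.mem_ker, e2, RingHom.comp_apply, RingHom.mem_ker.1 hb, map_zero]
    · have h1 : bv ∈ RingHom.ker (ev 0 0 _ r2) := ev_v r2
      rw [← e, RingHom.mem_ker, ev_v] at h1
      exact X_ne_zero h1
  have l3 : RingHom.ker (ev 0 0 _ r2) < mB := by
    refine lt_of_le_of_ne (fun b hb => ?_) fun e => ?_
    · rw [mB, RingHom.mem_ker, e3, RingHom.comp_apply, RingHom.mem_ker.1 hb, map_zero]
    · have h1 : bu ∈ mB := ev_u rel5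
      rw [← e, RingHom.mem_ker, ev_u] at h1
      exact absurd h1 (by decide)
  have g1 := Ideal.height_add_one_le_of_lt_of_isPrime l1
  have g2 := Ideal.height_add_one_le_of_lt_of_isPrime l2
  have g3 := Ideal.height_add_one_le_of_lt_of_isPrime l3
  calc (3 : ℕ∞) = 0 + 1 + 1 + 1 := by norm_num
    _ ≤ (⊥ : Ideal BB).height + 1 + 1 + 1 := by gcongr; exact zero_le
    _ ≤ _ := by
      refine le_trans ?_ g3
      gcongr
      refine le_trans ?_ g2
      gcongr

abbrev AA : Type := Localization.AtPrime mB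

instance : IsRegularLocalRing AA := by
  refine IsRegularLocalRing.of_spanFinrank_maximalIdeal_le _ ?_
  rw [IsLocalization.AtPrime.ringKrullDim_eq_height mB AA,
    ← Localization.AtPrime.map_eq_maximalIdeal]
  have e : Ideal.map (algebraMap BB AA) mB =
      Ideal.span {algebraMap BB AA bx, algebraMap BB AA bv, algebraMap BB AA bu} := by
    rw [congrArg (Ideal.map (algebraMap BB AA)) mB_eq, Ideal.map_span, Set.image_insert_eq,
      Set.image_pair]
  have h1 : (Ideal.map (algebraMap BB AA) mB).spanFinrank ≤ 3 := by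
    rw [e]
    refine (Submodule.spanFinrank_span_le_ncard_of_finite (Set.toFinite _)).trans ?_
    refine (Set.ncard_insert_le _ _).trans ?_
    have := Set.ncard_insert_le (algebraMap BB AA bv) {algebraMap BB AA bu}
    rw [Set.ncard_singleton] at this
    omega
  have h2 : (((Ideal.map (algebraMap BB AA) mB).spanFinrank : ℕ∞)) ≤ mB.height :=
    le_trans (by exact_mod_cast h1) three_le_height
  exact_mod_cast h2

theorem exists_data : ∃ (T : Der AA) (a b t : AA), a * b = t ^ 2 + t - 1 ∧ a ≠ 0 ∧ T.ψ a = 0 ∧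
    T.ψ b = 0 ∧ T.ψ t = 2 ∧ (∀ i, T.D i a = if i = 0 then 1 else 0) ∧
    (∀ i, T.D i b = if i = 1 then 1 else 0) ∧ ∀ i, T.D i t = if i = 2 then 1 else 0 := by
  have r : (TrivSqZeroExt.inr (Pi.single 0 2) : TrivSqZeroExt (ZMod 5) (Fin 3 → ZMod 5)) *
      TrivSqZeroExt.inr (Pi.single 1 2) = TrivSqZeroExt.inr (Pi.single 2 2) ^ 2 - 5 := by
    rw [pow_two, TrivSqZeroExt.inr_mul_inr, TrivSqZeroExt.inr_mul_inr,
      ← map_ofNat (TrivSqZeroExt.inlHom (ZMod 5) (Fin 3 → ZMod 5)) 5,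
      show (OfNat.ofNat 5 : ZMod 5) = 0 by decide, map_zero, sub_zero]
  have e : ((TrivSqZeroExt.fstHom ℤ (ZMod 5) (Fin 3 → ZMod 5)).toRingHom).comp (ev _ _ _ r) =
      ev 0 0 0 rel5 :=
    hom_ext (by rw [RingHom.comp_apply, ev_x, ev_x]; rfl)
      (by rw [RingHom.comp_apply, ev_v, ev_v]; rfl) (by rw [RingHom.comp_apply, ev_u, ev_u]; rfl)
  have hu : ∀ s : mB.primeCompl, IsUnit (ev _ _ _ r s) := fun s => by
    rw [TrivSqZeroExt.isUnit_iff_isUnit_fst, isUnit_iff_ne_zero]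
    intro h0
    refine s.2 ?_
    change ev 0 0 0 rel5 s = 0
    rw [← e]
    exact h0
  obtain ⟨Ψ, hΨ⟩ : ∃ Ψ : AA →+* TrivSqZeroExt (ZMod 5) (Fin 3 → ZMod 5),
      ∀ b, Ψ (algebraMap BB AA b) = ev _ _ _ r b :=
    ⟨IsLocalization.lift hu, IsLocalization.lift_eq hu⟩
  have h2 : (2 : BB) ∈ mB.primeCompl := by
    intro h0
    have h1 : ev 0 0 0 rel5 2 = 0 := h0
    rw [map_ofNat] at h1
    exact absurd h1 (by decide)
  obtain ⟨c, hc⟩ : ∃ c : AA, 2 * c = 1 := by
    have h1 := IsLocalization.map_units AA ⟨2, h2⟩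
    rw [map_ofNat] at h1
    exact h1.exists_right_inv
  have hΨc : Ψ c = TrivSqZeroExt.inl 3 := by
    have h1 := congrArg Ψ hc
    rw [map_mul, map_ofNat, map_one] at h1
    have h3 : (TrivSqZeroExt.inl 3 : TrivSqZeroExt (ZMod 5) (Fin 3 → ZMod 5)) * 2 = 1 := by
      rw [← map_ofNat (TrivSqZeroExt.inlHom (ZMod 5) (Fin 3 → ZMod 5)) 2,
        TrivSqZeroExt.inlHom_apply, ← TrivSqZeroExt.inl_mul]
      rfl
    calc Ψ c = TrivSqZeroExt.inl 3 * 2 * Ψ c := by rw [h3, one_mul]
      _ = _ := by rw [mul_assoc, h1, mul_one]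
  let T : Der AA :=
    { ψ := ((TrivSqZeroExt.fstHom ℤ (ZMod 5) (Fin 3 → ZMod 5)).toRingHom).comp Ψ
      D := fun i => AddMonoidHom.mk' (fun a => (Ψ a).snd i) fun a b => by simp
      leib := fun i a b => by
        simp [TrivSqZeroExt.snd_mul, add_comm, mul_comm] }
  have tψ : ∀ a, T.ψ a = (Ψ a).fst := fun a => rfl
  have tD : ∀ i a, T.D i a = (Ψ a).snd i := fun i a => rfl
  have rel : algebraMap BB AA bx * algebraMap BB AA bv = algebraMap BB AA bu ^ 2 - 5 := by
    rw [← map_mul, b_rel, map_sub, map_pow, map_ofNat]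
  refine ⟨T, c * algebraMap BB AA bx, c * algebraMap BB AA bv, c * (algebraMap BB AA bu - 1),
    ?_, ?_, ?_, ?_, ?_, ?_, ?_, ?_⟩
  · linear_combination c ^ 2 * rel + (c * algebraMap BB AA bu - 3 * c - 1) * hc
  · intro h0
    have h1 := congrArg (fun a => (Ψ a).snd 0) h0
    simp only [map_mul, hΨ, hΨc, ev_x, map_zero] at h1
    revert h1
    simp
    decide
  · simp [tψ, hΨ, ev_x]
  · simp [tψ, hΨ, ev_v]
  · simp [tψ, hΨ, hΨc, ev_u]
    decide
  · intro i
    simp only [tD, map_mul, hΨ, hΨc, ev_x]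
    fin_cases i <;> simp <;> decide
  · intro i
    simp only [tD, map_mul, hΨ, hΨc, ev_v]
    fin_cases i <;> simp <;> decide
  · intro i
    simp only [tD, map_mul, map_sub, map_one, hΨ, hΨc, ev_u]
    fin_cases i <;> simp <;> decide

theorem gersten_fails {F : Type} [Field F] (f : AA →+* F) (hf : Function.Injective f) :
    ¬ Function.Injective (K3Map f) := by
  obtain ⟨T, a, b, t, h0, h1, h2, h3, h4, h5, h6, h7⟩ := exists_data
  exact main_abs f T h0 ((map_ne_zero_iff f hf).2 h1) h2 h3 h4 h5 h6 h7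

end

end Vale.Agent.P178
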