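import Vale.Agent.P178.Defs

/-! P178 St: the Steinberg group, its action on `ℕ →₀ R`, and centrality of the kernel. -/

namespace Vale.Agent.P178

open Finsupp

variable {R : Type} [CommRing R]

def x (i j : ℕ) (h : i ≠ j) (r : R) : St R := PresentedGroup.of (⟨(i, j), h⟩, r)

theorem mk_xf (i j : ℕ) (h : i ≠ j) (r : R) :
    PresentedGroup.mk (stRels R) (xf i j h r) = x i j h r := rfl

theorem x_add (i j : ℕ) (h : i ≠ j) (r s : R) : x i j h r * x i j h s = x i j h (r + s) := by
  have e := PresentedGroup.one_of_mem (rels := stRels R) (Or.inl ⟨i, j, h, r, s, rfl⟩)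
  simp only [map_mul, map_inv, mk_xf] at e
  exact mul_inv_eq_one.1 e

theorem x_zero (i j : ℕ) (h : i ≠ j) : x i j h (0 : R) = 1 := by
  have e := x_add i j h (0 : R) 0
  rw [add_zero] at e
  exact mul_eq_left.1 e

theorem x_inv (i j : ℕ) (h : i ≠ j) (r : R) : (x i j h r)⁻¹ = x i j h (-r) := by
  rw [inv_eq_iff_mul_eq_one, x_add, add_neg_cancel, x_zero]

theorem x_comm3 {i j k : ℕ} (hij : i ≠ j) (hjk : j ≠ k) (hik : i ≠ k) (r s : R) :
    x i j hij r * x j k hjk s * (x i j hij r)⁻¹ * (x j k hjk s)⁻¹ = x i k hik (r * s) := by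
  have e := PresentedGroup.one_of_mem (rels := stRels R)
    (Or.inr (Or.inl ⟨i, j, k, hij, hjk, hik, r, s, rfl⟩))
  simp only [map_mul, map_inv, mk_xf] at e
  exact mul_inv_eq_one.1 e

theorem x_comm {i j k l : ℕ} (hij : i ≠ j) (hkl : k ≠ l) (h1 : j ≠ k) (h2 : i ≠ l) (r s : R) :
    Commute (x i j hij r) (x k l hkl s) := by
  have e := PresentedGroup.one_of_mem (rels := stRels R)
    (Or.inr (Or.inr ⟨i, j, k, l, hij, hkl, r, s, h1, h2, rfl⟩))
  simp only [map_mul, map_inv, mk_xf] at e
  rw [mul_inv_eq_one, mul_inv_eq_iff_eq_mul] at e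
  exact e

theorem stMap_x {S : Type} [CommRing S] (f : R →+* S) (i j : ℕ) (h : i ≠ j) (r : R) :
    stMap f (x i j h r) = x i j h (f r) :=
  PresentedGroup.toGroup.of (stMap_rel f)

theorem exists_hom {G : Type} [Group G] (g : (i j : ℕ) → i ≠ j → R → G)
    (h1 : ∀ i j h r s, g i j h r * g i j h s = g i j h (r + s))
    (h2 : ∀ i j k hij hjk hik r s,
      g i j hij r * g j k hjk s * (g i j hij r)⁻¹ * (g j k hjk s)⁻¹ = g i k hik (r * s))
    (h3 : ∀ i j k l hij hkl r s, j ≠ k → i ≠ l → Commute (g i j hij r) (g k l hkl s)) :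
    ∃ φ : St R →* G, ∀ i j h r, φ (x i j h r) = g i j h r := by
  have key : ∀ (i j : ℕ) (h : i ≠ j) (r : R),
      FreeGroup.lift (fun p : StGen R => g p.1.1.1 p.1.1.2 p.1.2 p.2) (xf i j h r) = g i j h r :=
    fun i j h r => FreeGroup.lift_apply_of
  refine ⟨PresentedGroup.toGroup (f := fun p : StGen R => g p.1.1.1 p.1.1.2 p.1.2 p.2) ?_,
    fun i j h r => PresentedGroup.toGroup.of _⟩
  rintro w (⟨i, j, h, r, s, rfl⟩ | ⟨i, j, k, hij, hjk, hik, r, s, rfl⟩ |
    ⟨i, j, k, l, hij, hkl, r, s, a, b, rfl⟩) <;> simp only [map_mul, map_inv, key]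
  · rw [h1, mul_inv_cancel]
  · rw [h2 i j k hij hjk hik, mul_inv_cancel]
  · rw [(h3 i j k l hij hkl r s a b).eq, mul_inv_cancel_right, mul_inv_cancel]

/-- The elementary transformation. -/
noncomputable def el (i j : ℕ) (h : i ≠ j) (r : R) : (ℕ →₀ R) ≃ₗ[R] (ℕ →₀ R) where
  toFun v := v + single i (r * v j)
  invFun v := v + single i (-r * v j)
  map_add' u v := by
    rw [Finsupp.add_apply, mul_add, single_add]
    abel
  map_smul' c v := by
    rw [Finsupp.smul_apply, RingHom.id_apply, smul_add, smul_single, smul_eq_mul, smul_eq_mul,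
      mul_left_comm]
  left_inv v := by
    simp only [Finsupp.add_apply, single_eq_of_ne h.symm, add_zero, add_assoc, ← single_add]
    simp
  right_inv v := by
    simp only [Finsupp.add_apply, single_eq_of_ne h.symm, add_zero, add_assoc, ← single_add]
    simp

theorem el_apply (i j : ℕ) (h : i ≠ j) (r : R) (v : ℕ →₀ R) :
    el i j h r v = v + single i (r * v j) := rfl

theorem el_inv_apply (i j : ℕ) (h : i ≠ j) (r : R) (v : ℕ →₀ R) :
    (el i j h r)⁻¹ v = v + single i (-r * v j) := rfl

theorem exists_pi : ∃ φ : St R →* ((ℕ →₀ R) ≃ₗ[R] (ℕ →₀ R)),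
    ∀ i j h r, φ (x i j h r) = el i j h r := by
  refine exists_hom el ?_ ?_ ?_
  · intro i j h r s
    ext v k
    simp only [LinearEquiv.mul_apply, el_apply, Finsupp.add_apply, single_apply, if_neg h]
    split_ifs <;> ring
  · intro i j k hij hjk hik r s
    ext v l
    simp only [LinearEquiv.mul_apply, el_apply, el_inv_apply, Finsupp.add_apply, single_apply, if_neg hij,
      if_neg hjk, if_neg hik, if_true]
    split_ifs <;> ring
  · intro i j k l hij hkl r s a b
    ext v m
    simp only [LinearEquiv.mul_apply, el_apply, Finsupp.add_apply, single_apply, if_neg a.symm, if_neg b]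
    split_ifs <;> ring

/-- The action of the Steinberg group. -/
noncomputable def pi : St R →* ((ℕ →₀ R) ≃ₗ[R] (ℕ →₀ R)) := exists_pi.choose

theorem pi_x (i j : ℕ) (h : i ≠ j) (r : R) (v : ℕ →₀ R) :
    pi (x i j h r) v = v + single i (r * v j) := by
  rw [pi, exists_pi.choose_spec, el_apply]

theorem pi_mul (g g' : St R) (v : ℕ →₀ R) : pi (g * g') v = pi g (pi g' v) := by
  rw [map_mul, LinearEquiv.mul_apply]

theorem pi_x_apply (i j : ℕ) (h : i ≠ j) (r : R) (v : ℕ →₀ R) (k : ℕ) :
    pi (x i j h r) v k = v k + if i = k then r * v j else 0 := by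
  rw [pi_x, Finsupp.add_apply, single_apply]

/-- The subgroup generated by the `x_{ij}` with `i, j ∈ s`. -/
def Sub (R : Type) [CommRing R] (s : Set ℕ) : Subgroup (St R) :=
  Subgroup.closure {g | ∃ i j h r, i ∈ s ∧ j ∈ s ∧ g = x i j h r}

theorem x_mem {s : Set ℕ} {i j : ℕ} (h : i ≠ j) (r : R) (hi : i ∈ s) (hj : j ∈ s) :
    x i j h r ∈ Sub R s := Subgroup.subset_closure ⟨i, j, h, r, hi, hj, rfl⟩

theorem Sub_mono {s t : Set ℕ} (h : s ⊆ t) : Sub R s ≤ Sub R t :=
  Subgroup.closure_mono fun _ ⟨i, j, hij, r, hi, hj, e⟩ => ⟨i, j, hij, r, h hi, h hj, e⟩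

theorem Sub_ind {s : Set ℕ} {p : St R → Prop} (h1 : p 1)
    (h2 : ∀ i j h r g, i ∈ s → j ∈ s → g ∈ Sub R s → p g → p (x i j h r * g)) {g : St R}
    (hg : g ∈ Sub R s) : p g := by
  induction hg using Subgroup.closure_induction_left with
  | one => exact h1
  | mul_left a ha y hy ih =>
    obtain ⟨i, j, h, r, hi, hj, rfl⟩ := ha
    exact h2 i j h r y hi hj hy ih
  | inv_mul_cancel a ha y hy ih =>
    obtain ⟨i, j, h, r, hi, hj, rfl⟩ := ha
    rw [x_inv]
    exact h2 i j h _ y hi hj hy ih

theorem mem_Sub_univ (g : St R) : g ∈ Sub R Set.univ :=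
  PresentedGroup.generated_by _ _ (fun p => x_mem p.1.2 p.2 (Set.mem_univ _) (Set.mem_univ _)) g

theorem exists_bound (g : St R) : ∃ n, g ∈ Sub R (Set.Iio n) := by
  refine Sub_ind (p := fun g => ∃ n, g ∈ Sub R (Set.Iio n)) ⟨0, one_mem _⟩ ?_ (mem_Sub_univ g)
  rintro i j h r g - - - ⟨n, hn⟩
  refine ⟨n + i + j + 1, mul_mem (x_mem h r ?_ ?_) (Sub_mono (Set.Iio_subset_Iio ?_) hn)⟩
  · change i < _
    omega
  · change j < _
    omega
  · omega

theorem pi_out {s : Set ℕ} {g : St R} (hg : g ∈ Sub R s) {k : ℕ} (hk : k ∉ s) (v : ℕ →₀ R) :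
    pi g v k = v k := by
  refine Sub_ind (p := fun g => pi g v k = v k) (by rw [map_one]; rfl) ?_ hg
  intro i j h r g hi _ _ ih
  rw [pi_mul, pi_x_apply, if_neg (fun e : i = k => hk (e ▸ hi)), add_zero, ih]

theorem pi_single_out {s : Set ℕ} {g : St R} (hg : g ∈ Sub R s) {k : ℕ} (hk : k ∉ s) (c : R) :
    pi g (single k c) = single k c := by
  refine Sub_ind (p := fun g => pi g (single k c) = single k c) (by rw [map_one]; rfl) ?_ hg
  intro i j h r g _ hj _ ih
  rw [pi_mul, ih, pi_x, single_eq_of_ne (fun e : j = k => hk (e ▸ hj)), mul_zero, single_zero,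
    add_zero]

/-- Column elements. -/
def xx (i N : ℕ) (r : R) : St R := if h : i ≠ N then x i N h r else 1

theorem exists_sec (N : ℕ) : ∃ σ : (ℕ →₀ R) → St R, (∀ u v, σ (u + v) = σ u * σ v) ∧
    ∀ i r, σ (single i r) = xx i N r := by
  have hc : ∀ a ∈ {g : St R | ∃ i r, g = xx i N r}, ∀ b ∈ {g : St R | ∃ i r, g = xx i N r},
      a * b = b * a := by
    rintro _ ⟨i, r, rfl⟩ _ ⟨j, s, rfl⟩
    unfold xx
    split_ifs with hi hj hj
    · exact (x_comm hi hj hj.symm hi r s).eq
    all_goals simp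
  let _ := Subgroup.closureCommGroupOfComm hc
  let F : (ℕ →₀ R) →+ Additive (Subgroup.closure {g : St R | ∃ i r, g = xx i N r}) :=
    Finsupp.liftAddHom fun i => AddMonoidHom.mk'
      (fun r => Additive.ofMul ⟨xx i N r, Subgroup.subset_closure ⟨i, r, rfl⟩⟩) fun r s => by
        apply Additive.toMul.injective
        apply Subtype.ext
        change xx i N (r + s) = xx i N r * xx i N s
        unfold xx
        split_ifs
        · rw [x_add]
        · rw [mul_one]
  refine ⟨fun v => (Additive.toMul (F v)).1, fun u v => ?_, fun i r => ?_⟩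
  · simp only [map_add]
    rfl
  · simp only [F, liftAddHom_apply_single]
    rfl

theorem comm_col {N : ℕ} {g : St R} (hg : g ∈ Sub R {N}ᶜ) (h1 : pi g = 1) (i : ℕ) (h : i ≠ N)
    (r : R) : Commute g (x i N h r) := by
  obtain ⟨σ, hσ, hs⟩ := exists_sec (R := R) N
  have h0 : σ 0 = 1 := by
    have e := hσ 0 0
    rw [add_zero] at e
    exact mul_eq_left.1 e.symm
  have gen : ∀ k l (hkl : k ≠ l) (s : R), k ≠ N → l ≠ N → ∀ v,
      x k l hkl s * σ v * (x k l hkl s)⁻¹ = σ (pi (x k l hkl s) v) := by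
    intro k l hkl s hk hl v
    induction v using Finsupp.induction_linear with
    | zero => rw [map_zero, h0, mul_one, mul_inv_cancel]
    | add u v hu hv =>
      rw [map_add, hσ, hσ, ← hu, ← hv]
      group
    | single i r =>
      rw [pi_x, hσ, hs, hs, xx, xx, dif_pos hk]
      by_cases hl' : l = i
      · subst hl'
        rw [dif_pos hl, single_eq_same, ← (x_comm hk hl hl.symm hk _ _).eq,
          ← x_comm3 hkl hl hk s r, inv_mul_cancel_right]
      · rw [single_eq_of_ne hl', mul_zero, x_zero, mul_one]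
        split_ifs with hi
        · rw [(x_comm hkl hi hl' hk s r).eq, mul_inv_cancel_right]
        · rw [mul_one, mul_inv_cancel]
  have key : ∀ v, g * σ v * g⁻¹ = σ (pi g v) := by
    refine Sub_ind (p := fun g => ∀ v, g * σ v * g⁻¹ = σ (pi g v)) ?_ ?_ hg
    · intro v
      rw [map_one, one_mul, inv_one, mul_one]
      rfl
    · intro k l hkl s g hk hl _ ih v
      rw [pi_mul, ← gen k l hkl s hk hl, ← ih]
      group
  have e := key (single i r)
  rw [h1, LinearEquiv.coe_one, id, hs, xx, dif_pos h, mul_inv_eq_iff_eq_mul] at e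
  exact e

theorem exists_tau : ∃ τ : St R →* St R, ∀ i j h r, τ (x i j h r) = x j i h.symm (-r) := by
  refine exists_hom (fun i j h r => x j i h.symm (-r)) ?_ ?_ ?_
  · intro i j h r s
    rw [x_add, neg_add]
  · intro i j k hij hjk hik r s
    rw [← x_inv k i, ← neg_mul_neg r s, mul_comm (-r), ← x_comm3 hjk.symm hij.symm hik.symm]
    group
  · intro i j k l hij hkl r s a b
    exact x_comm _ _ b a _ _

theorem pair_add_right (u v w : ℕ →₀ R) : linearCombination R (⇑(v + w)) u =
    linearCombination R (⇑v) u + linearCombination R (⇑w) u := by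
  induction u using Finsupp.induction_linear with
  | zero => simp
  | add a b ha hb => simp only [map_add, ha, hb]; ring
  | single i r => simp [mul_add]

theorem pair_single_right (u : ℕ →₀ R) (k : ℕ) (b : R) :
    linearCombination R (⇑(single k b)) u = u k * b := by
  induction u using Finsupp.induction_linear with
  | zero => simp
  | add a c ha hc => simp only [map_add, ha, hc, Finsupp.add_apply]; ring
  | single i r =>
    by_cases h : i = k
    · subst h
      simp
    · simp [h, Ne.symm h]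

/-- The kernel of the action is central. -/
theorem central {g : St R} (h1 : pi g = 1) (a : St R) : Commute g a := by
  obtain ⟨τ, hτ⟩ := exists_tau (R := R)
  have hττ : ∀ a, τ (τ a) = a := fun a => by
    refine Sub_ind (p := fun a => τ (τ a) = a) (by rw [map_one, map_one]) ?_ (mem_Sub_univ a)
    intro i j h r a _ _ _ ih
    rw [map_mul, map_mul, ih, hτ, hτ, neg_neg]
  have hmem : ∀ (s : Set ℕ) a, a ∈ Sub R s → τ a ∈ Sub R s := fun s a ha => by
    refine Sub_ind (p := fun a => τ a ∈ Sub R s) (by rw [map_one]; exact one_mem _) ?_ ha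
    intro i j h r a hi hj _ ih
    rw [map_mul, hτ]
    exact mul_mem (x_mem _ _ hj hi) ih
  have hp : ∀ a : St R, ∀ u v : ℕ →₀ R,
      linearCombination R (⇑(pi a v)) (pi (τ a) u) = linearCombination R (⇑v) u := fun a => by
    refine Sub_ind (p := fun a => ∀ u v : ℕ →₀ R,
      linearCombination R (⇑(pi a v)) (pi (τ a) u) = linearCombination R (⇑v) u) ?_ ?_
      (mem_Sub_univ a)
    · intro u v
      rw [map_one τ, map_one]
      rfl
    · intro i j h r a _ _ _ ih u v
      rw [map_mul τ, pi_mul, pi_mul, hτ, ← ih u v, pi_x, pi_x, map_add, pair_add_right,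
        pair_single_right, linearCombination_single, Finsupp.add_apply, single_eq_of_ne h.symm,
        smul_eq_mul]
      ring
  have h2 : pi (τ g) = 1 := by
    ext u k
    have e := hp g u (single k 1)
    rw [h1, LinearEquiv.coe_one, id, pair_single_right, pair_single_right, mul_one, mul_one] at e
    exact e
  obtain ⟨n, hn⟩ := exists_bound g
  refine Sub_ind (p := fun a => Commute g a) (Commute.one_right g) ?_ (mem_Sub_univ a)
  intro i j h r a _ _ _ ih
  refine Commute.mul_right ?_ ih
  have hg : g ∈ Sub R {n + i + j + 1}ᶜ := by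
    refine Sub_mono (fun k hk => ?_) hn
    have h3 : k < n := hk
    intro e
    have h4 : k = n + i + j + 1 := e
    omega
  have hi : i ≠ n + i + j + 1 := by omega
  have hj : j ≠ n + i + j + 1 := by omega
  have c1 := comm_col hg h1 i hi r
  have c2 : Commute g (x (n + i + j + 1) j hj.symm 1) := by
    have e := (comm_col (hmem _ g hg) h2 j hj (-1)).map τ
    rwa [hττ, hτ, neg_neg] at e
  have e := x_comm3 hi hj.symm h r 1
  rw [mul_one] at e
  rw [← e]
  exact ((c1.mul_right c2).mul_right c1.inv_right).mul_right c2.inv_right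

end Vale.Agent.P178
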